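import Vale.Agent.P287.R2.H248.Defs

/-! P287, row S1 of helper992 (helper847): the cubic `F0` is smooth. -/

namespace Vale.Agent.P287.R2.H847.S1

open MvPolynomial
open Vale.Agent.P287.R2.H248

/-- the polynomial `F0` of helper992, verbatim -/
noncomputable def F0 : MvPolynomial (Fin 6) ℂ :=
  X 0 ^ 3 + X 1 ^ 3 + X 2 ^ 3 + X 3 ^ 3 + X 4 * X 5 ^ 2 + X 4 ^ 2 * (X 1 + C 2 * X 2 + C 3 * X 3)

theorem hom : F0.IsHomogeneous 3 := by
  unfold F0
  have hX : ∀ i : Fin 6, (X i : MvPolynomial (Fin 6) ℂ).IsHomogeneous 1 := fun i =>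
    isHomogeneous_X ℂ i
  have hC : ∀ (c : ℂ) (i : Fin 6), (C c * X i : MvPolynomial (Fin 6) ℂ).IsHomogeneous 1 := by
    intro c i
    simpa using (isHomogeneous_C (Fin 6) c).mul (hX i)
  have h3 : ∀ i : Fin 6, (X i ^ 3 : MvPolynomial (Fin 6) ℂ).IsHomogeneous 3 := fun i => by
    simpa using (hX i).pow 3
  have h2 : ∀ i : Fin 6, (X i ^ 2 : MvPolynomial (Fin 6) ℂ).IsHomogeneous 2 := fun i => by
    simpa using (hX i).pow 2
  refine (((((h3 0).add (h3 1)).add (h3 2)).add (h3 3)).add ((hX 4).mul (h2 5))).add ?_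
  exact (h2 4).mul (((hX 1).add (hC 2 2)).add (hC 3 3))

theorem smooth : ∀ v : A6, (∀ i, eval v (pderiv i F0) = 0) → v = 0 := by
  intro v h
  have h0 := h 0
  have h1 := h 1
  have h2 := h 2
  have h3 := h 3
  have h4 := h 4
  have h5 := h 5
  simp only [F0, map_add, Derivation.leibniz, Derivation.leibniz_pow, pderiv_X, pderiv_C,
    smul_eq_mul, nsmul_eq_mul, map_mul, map_pow, eval_X, eval_C, Pi.single_apply, map_natCast] at h0 h1 h2 h3 h4 h5
  simp at h0 h1 h2 h3 h4 h5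
  have hd : v 4 = 0 := by
    rcases h5 with h5 | h5
    · exact h5
    by_contra hne
    have hl : v 1 + 2 * v 2 + 3 * v 3 = 0 := by
      rw [h5] at h4
      have h6 : (v 1 + 2 * v 2 + 3 * v 3) * (2 * v 4) = 0 := by linear_combination h4
      rcases mul_eq_zero.1 h6 with h7 | h7
      · exact h7
      · exact absurd (by simpa using h7) hne
    have hab : 2 * (v 1 * v 2) + 3 * v 4 ^ 2 = 0 := by
      linear_combination (1 / 2 : ℂ) * (3 * h3 - (1 / 3 : ℂ) * h1 - (4 / 3 : ℂ) * h2 -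
        (3 * v 3 - v 1 - 2 * v 2) * hl)
    have h8 : v 4 ^ 4 = 0 := by
      linear_combination (1 / 73 : ℂ) * (4 * (h1 * (3 * v 2 ^ 2) - v 4 ^ 2 * h2) -
        9 * (2 * (v 1 * v 2) - 3 * v 4 ^ 2) * hab)
    exact hne (pow_eq_zero_iff (by norm_num) |>.1 h8)
  have e1 : v 1 = 0 := by
    have : v 1 ^ 2 = 0 := by
      rw [hd] at h1
      linear_combination (1 / 3 : ℂ) * h1
    exact pow_eq_zero_iff (by norm_num) |>.1 this
  have e2 : v 2 = 0 := by
    have : v 2 ^ 2 = 0 := by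
      rw [hd] at h2
      linear_combination (1 / 3 : ℂ) * h2
    exact pow_eq_zero_iff (by norm_num) |>.1 this
  have e3 : v 3 = 0 := by
    have : v 3 ^ 2 = 0 := by
      rw [hd] at h3
      linear_combination (1 / 3 : ℂ) * h3
    exact pow_eq_zero_iff (by norm_num) |>.1 this
  have e5 : v 5 = 0 := by
    have : v 5 ^ 2 = 0 := by
      rw [hd] at h4
      linear_combination h4
    exact pow_eq_zero_iff (by norm_num) |>.1 this
  funext i
  fin_cases i
  · exact h0
  · exact e1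
  · exact e2
  · exact e3
  · exact hd
  · exact e5

/-- ROW S1. -/
theorem row_S1 : IsCubicFourfold F0 := ⟨hom, smooth⟩

end Vale.Agent.P287.R2.H847.S1
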