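import Vale.Agent.P287.R2.H248.Eckardt

/-!
P287: cyclic cubic fourfolds with at least ten planes, not all through one point.
-/

namespace Vale.Agent.P287.R2.H847

open Module Submodule
open Vale.Agent.P287.R2.H248

variable {V : Type*} [AddCommGroup V] [Module ℂ V] {S : Tri V} {v : V} {l : V →ₗ[ℂ] ℂ}

/-- The cubic form is `G (x - l x • v) + c (l x) ^ 3` with `c ≠ 0`. -/
structure Cyc (S : Tri V) (v : V) (l : V →ₗ[ℂ] ℂ) : Prop where
  one : l v = 1
  vv : ∀ x, l x = 0 → S.T v v x = 0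
  v1 : ∀ x y, l x = 0 → l y = 0 → S.T v x y = 0
  ne : S.T v v v ≠ 0

namespace Cyc

variable (hC : Cyc S v l)
include hC

lemma zvv {z : V} (hz : l z = 0) : S.T z v v = 0 := by
  rw [S.cyc]
  exact hC.vv z hz

lemma zzv {z : V} (hz : l z = 0) : S.T z z v = 0 := by
  rw [← S.cyc]
  exact hC.v1 z z hz hz

lemma zv {z : V} (hz : l z = 0) (y : V) : S.T z v y = 0 := by
  have h1 : l (y - l y • v) = 0 := by
    rw [map_sub, map_smul, hC.one, smul_eq_mul, mul_one, sub_self]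
  have h2 : S.T z v (y - l y • v) = 0 := by
    rw [S.s12]
    exact hC.v1 z _ hz h1
  rw [map_sub, map_smul, hC.zvv hz, smul_zero, sub_zero] at h2
  exact h2

lemma not_mem {P : Submodule ℂ V} (hP : S.Iso P) : v ∉ P := fun h => hC.ne (hP v h)

lemma mem_of {R : Submodule ℂ V} (hR : S.Iso R) {z : V} (hz : z ∈ R ⊔ span ℂ {v})
    (hl : l z = 0) (hT : S.T z z z = 0) : z ∈ R := by
  obtain ⟨p, hp, w, hw, rfl⟩ := mem_sup.mp hz
  obtain ⟨t, rfl⟩ := mem_span_singleton.mp hw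
  have h1 := S.cube_add 1 (-t) (p + t • v) v
  have h2 : (1 : ℂ) • (p + t • v) + (-t) • v = p := by
    rw [one_smul, neg_smul, add_neg_cancel_right]
  rw [h2, hR p hp, hT, hC.zzv hl, hC.zvv hl] at h1
  have h3 : t ^ 3 * S.T v v v = 0 := by linear_combination h1
  have h4 : t = 0 := by
    rcases mul_eq_zero.mp h3 with h | h
    · exact pow_eq_zero_iff (by norm_num) |>.mp h
    · exact absurd h hC.ne
  rw [h4, zero_smul, add_zero]
  exact hp

lemma finrank_ker [FiniteDimensional ℂ V] (hV : finrank ℂ V = 6) :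
    finrank ℂ (LinearMap.ker l) = 5 := by
  have h1 := LinearMap.finrank_range_add_finrank_ker l
  have h2 : LinearMap.range l = ⊤ := by
    rw [LinearMap.range_eq_top]
    intro c
    exact ⟨c • v, by rw [map_smul, hC.one, smul_eq_mul, mul_one]⟩
  rw [h2, finrank_top, finrank_self, hV] at h1
  omega

lemma two_le [FiniteDimensional ℂ V] (hV : finrank ℂ V = 6) {P : Submodule ℂ V}
    (hP : finrank ℂ P = 3) : 2 ≤ finrank ℂ ↥(P ⊓ LinearMap.ker l) := by
  have h1 := Submodule.finrank_sup_add_finrank_inf_eq P (LinearMap.ker l)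
  have h2 := Submodule.finrank_le (P ⊔ LinearMap.ker l)
  rw [hC.finrank_ker hV, hP] at h1
  omega

lemma four [FiniteDimensional ℂ V] {P : Submodule ℂ V} (hP : finrank ℂ P = 3) (hI : S.Iso P) :
    finrank ℂ ↥(P ⊔ span ℂ {v}) = 4 := by
  rw [finrank_sup_single (hC.not_mem hI), hP]

lemma tt {P Q : Submodule ℂ V} (hIP : S.Iso P) (hIQ : S.Iso Q) {z : V} (h1 : z ∈ P) (h2 : z ∈ Q)
    (hl : l z = 0) {x : V} (hx : x ∈ P ⊔ Q ⊔ span ℂ {v}) : S.T z z x = 0 := by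
  obtain ⟨y, hy, w, hw, rfl⟩ := mem_sup.mp hx
  obtain ⟨p, hp, q, hq, rfl⟩ := mem_sup.mp hy
  obtain ⟨t, rfl⟩ := mem_span_singleton.mp hw
  rw [map_add, map_add, map_smul, hIP.two h1 hp, hIQ.two h2 hq, hC.zzv hl, smul_zero]
  simp

omit hC in
/-- two independent vectors on which the polar forms vanish on a hyperplane -/
lemma sing_pair (hS : S.Smooth) {B : Submodule ℂ V} {e : V} (hB : B ⊔ span ℂ {e} = ⊤) {a b : V}
    (ha : a ≠ 0) (hb : b ∉ span ℂ {a}) (h1 : ∀ x ∈ B, S.T a a x = 0)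
    (h2 : ∀ x ∈ B, S.T a b x = 0) (h3 : ∀ x ∈ B, S.T b b x = 0) : False := by
  obtain ⟨s, r, hsr, hquad⟩ := quad_zero (S.T a a e) (S.T a b e) (S.T b b e)
  have h0 : s • a + r • b = 0 := by
    apply hS
    intro w
    have hw : w ∈ B ⊔ span ℂ {e} := by rw [hB]; trivial
    obtain ⟨x, hx, z, hz, rfl⟩ := mem_sup.mp hw
    obtain ⟨c, rfl⟩ := mem_span_singleton.mp hz
    rw [map_add, map_smul, S.sq_add, h1 x hx, h2 x hx, h3 x hx, S.sq_add, hquad, smul_zero]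
    ring
  obtain ⟨a1, a2⟩ := Tri.pair_eq_zero ha hb h0
  rcases hsr with h | h
  · exact h a1
  · exact h a2

end Cyc

section planes

variable [FiniteDimensional ℂ V]

/-- the join of two planes and the centre -/
def J (v : V) (P Q : Submodule ℂ V) : Submodule ℂ V := P ⊔ Q ⊔ span ℂ {v}

omit [FiniteDimensional ℂ V] in
lemma J_comm (v : V) (P Q : Submodule ℂ V) : J v P Q = J v Q P := by
  unfold J
  rw [sup_comm P Q]

omit [FiniteDimensional ℂ V] in
lemma J_eq (v : V) (P Q : Submodule ℂ V) : J v P Q = (P ⊔ span ℂ {v}) ⊔ (Q ⊔ span ℂ {v}) := by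
  unfold J
  apply le_antisymm
  · exact sup_le (sup_le (le_sup_left.trans le_sup_left) (le_sup_left.trans le_sup_right))
      (le_sup_right.trans le_sup_left)
  · exact sup_le (sup_le (le_sup_left.trans le_sup_left) le_sup_right)
      (sup_le (le_sup_right.trans le_sup_left) le_sup_right)

lemma five (hV : finrank ℂ V = 6) (hC : Cyc S v l) {P Q : Submodule ℂ V}
    (hP : finrank ℂ P = 3) (hIP : S.Iso P) (hne : ¬ Q ≤ P ⊔ span ℂ {v}) (hns : J v P Q ≠ ⊤) :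
    finrank ℂ ↥(J v P Q) = 5 := by
  have h1 : P ⊔ span ℂ {v} < J v P Q := by
    refine lt_of_le_of_ne ?_ ?_
    · exact sup_le (le_sup_left.trans le_sup_left) le_sup_right
    · intro h
      exact hne (h ▸ (le_sup_right.trans le_sup_left))
  have h2 := Submodule.finrank_lt_finrank_of_lt h1
  rw [hC.four hP hIP] at h2
  have h3 : finrank ℂ ↥(J v P Q) < 6 := by
    rw [← hV]
    exact Submodule.finrank_lt hns
  omega

/-- a common point on the hyperplane -/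
lemma exists_z (hV : finrank ℂ V = 6) (hC : Cyc S v l) {P Q : Submodule ℂ V}
    (hP : finrank ℂ P = 3) (hIP : S.Iso P) (hQ : finrank ℂ Q = 3) (hIQ : S.Iso Q)
    (hns : J v P Q ≠ ⊤) : ∃ z, z ≠ 0 ∧ z ∈ P ∧ z ∈ Q ∧ l z = 0 := by
  have h1 := Submodule.finrank_sup_add_finrank_inf_eq (P ⊓ LinearMap.ker l) (Q ⊔ span ℂ {v})
  have h2 := hC.two_le hV hP
  have h3 : (P ⊓ LinearMap.ker l) ⊔ (Q ⊔ span ℂ {v}) ≤ J v P Q :=
    sup_le (inf_le_left.trans (le_sup_left.trans le_sup_left))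
      (sup_le (le_sup_right.trans le_sup_left) le_sup_right)
  have h4 := Submodule.finrank_mono h3
  have h5 : finrank ℂ ↥(J v P Q) < 6 := by
    rw [← hV]
    exact Submodule.finrank_lt hns
  rw [hC.four hQ hIQ] at h1
  have h6 : (P ⊓ LinearMap.ker l) ⊓ (Q ⊔ span ℂ {v}) ≠ ⊥ := by
    intro h
    rw [h, finrank_bot] at h1
    omega
  obtain ⟨z, hz, hz0⟩ := (Submodule.ne_bot_iff _).mp h6
  have hzP : z ∈ P := hz.1.1
  have hzl : l z = 0 := hz.1.2
  exact ⟨z, hz0, hzP, hC.mem_of hIQ hz.2 hzl (hIP z hzP), hzl⟩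

/-- `P` meets the hyperplane in dimension two -/
lemma two_eq (hS : S.Smooth) (hV : finrank ℂ V = 6) (hC : Cyc S v l) {P Q : Submodule ℂ V}
    (hP : finrank ℂ P = 3) (hIP : S.Iso P) (hQ : finrank ℂ Q = 3) (hIQ : S.Iso Q)
    (hne : ¬ Q ≤ P ⊔ span ℂ {v}) (hns : J v P Q ≠ ⊤) :
    finrank ℂ ↥(P ⊓ LinearMap.ker l) = 2 := by
  by_contra hcon
  have h2 := hC.two_le hV hP
  have hge : 3 ≤ finrank ℂ ↥(P ⊓ LinearMap.ker l) := by omega
  have h1 := Submodule.finrank_sup_add_finrank_inf_eq (P ⊓ LinearMap.ker l) (Q ⊔ span ℂ {v})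
  have h3 : (P ⊓ LinearMap.ker l) ⊔ (Q ⊔ span ℂ {v}) ≤ J v P Q :=
    sup_le (inf_le_left.trans (le_sup_left.trans le_sup_left))
      (sup_le (le_sup_right.trans le_sup_left) le_sup_right)
  have h4 := Submodule.finrank_mono h3
  have h5 := five hV hC hP hIP hne hns
  rw [hC.four hQ hIQ] at h1
  set Z := (P ⊓ LinearMap.ker l) ⊓ (Q ⊔ span ℂ {v}) with hZ
  have h6 : 2 ≤ finrank ℂ Z := by omega
  obtain ⟨a, haZ, ha0⟩ : ∃ a ∈ Z, a ≠ 0 := by
    have : Z ≠ ⊥ := by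
      intro h
      rw [h, finrank_bot] at h6
      omega
    exact Z.ne_bot_iff.mp this
  obtain ⟨b, hbZ, hba⟩ : ∃ b ∈ Z, b ∉ span ℂ {a} := by
    have h1 : ¬ Z ≤ span ℂ {a} := by
      intro h
      have := Submodule.finrank_mono h
      rw [finrank_span_singleton ha0] at this
      omega
    obtain ⟨b, hb, hb2⟩ := Set.not_subset.mp h1
    exact ⟨b, hb, hb2⟩
  have hall : ∀ z ∈ Z, ∀ x ∈ J v P Q, S.T z z x = 0 := by
    intro z hz x hx
    have hzQ : z ∈ Q := hC.mem_of hIQ hz.2 hz.1.2 (hIP z hz.1.1)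
    exact hC.tt hIP hIQ hz.1.1 hzQ hz.1.2 hx
  obtain ⟨e, he⟩ : ∃ e, e ∉ J v P Q := by
    apply exists_not_mem
    rw [h5, hV]
    norm_num
  have htop : J v P Q ⊔ span ℂ {e} = ⊤ := by
    apply Submodule.eq_top_of_finrank_eq
    rw [finrank_sup_single he, h5, hV]
  refine Cyc.sing_pair hS htop ha0 hba (hall a haZ) ?_ (hall b hbZ)
  intro x hx
  have h7 := hall _ (Z.add_mem (Z.smul_mem 1 haZ) (Z.smul_mem 1 hbZ)) x hx
  rw [S.sq_add, hall a haZ x hx, hall b hbZ x hx] at h7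
  linear_combination (1 / 2 : ℂ) * h7

/-- a third plane lies in the join of two planes and the centre -/
lemma le_J (hS : S.Smooth) (hV : finrank ℂ V = 6) (hC : Cyc S v l) {P Q R : Submodule ℂ V}
    (hP : finrank ℂ P = 3) (hIP : S.Iso P) (hQ : finrank ℂ Q = 3) (hIQ : S.Iso Q)
    (hR : finrank ℂ R = 3) (hIR : S.Iso R)
    (hne : ¬ Q ≤ P ⊔ span ℂ {v}) (hPQ : J v P Q ≠ ⊤) (hPR : J v P R ≠ ⊤) (hQR : J v Q R ≠ ⊤) :
    R ≤ J v P Q := by
  by_contra hcon
  have hB := five hV hC hP hIP hne hPQ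
  have hP' := hC.four hP hIP
  have hQ' := hC.four hQ hIQ
  have hR' := hC.four hR hIR
  have hRB : ¬ R ⊔ span ℂ {v} ≤ J v P Q := fun h => hcon (le_sup_left.trans h)
  have h1 := Submodule.finrank_sup_add_finrank_inf_eq (R ⊔ span ℂ {v}) (J v P Q)
  have h2 : J v P Q < (R ⊔ span ℂ {v}) ⊔ J v P Q := by
    refine lt_of_le_of_ne le_sup_right ?_
    intro h
    exact hRB (h ▸ le_sup_left)
  have h3 := Submodule.finrank_lt_finrank_of_lt h2
  have h4 := Submodule.finrank_le ((R ⊔ span ℂ {v}) ⊔ J v P Q)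
  have h5 : finrank ℂ ↥((R ⊔ span ℂ {v}) ⊓ J v P Q) = 3 := by omega
  have htop : (R ⊔ span ℂ {v}) ⊔ J v P Q = ⊤ := by
    apply Submodule.eq_top_of_finrank_eq
    omega
  -- the intersections
  have key : ∀ X : Submodule ℂ V, finrank ℂ ↥(X ⊔ span ℂ {v}) = 4 → J v X R ≠ ⊤ →
      X ⊔ span ℂ {v} ≤ J v P Q →
      (R ⊔ span ℂ {v}) ⊓ J v P Q ≤ X ⊔ span ℂ {v} := by
    intro X hX hXR hXB
    have g1 := Submodule.finrank_sup_add_finrank_inf_eq (X ⊔ span ℂ {v}) (R ⊔ span ℂ {v})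
    have g2 : finrank ℂ ↥((X ⊔ span ℂ {v}) ⊔ (R ⊔ span ℂ {v})) < 6 := by
      rw [← J_eq, ← hV]
      exact Submodule.finrank_lt hXR
    have g3 : (X ⊔ span ℂ {v}) ⊓ (R ⊔ span ℂ {v}) ≤ (R ⊔ span ℂ {v}) ⊓ J v P Q :=
      le_inf inf_le_right (inf_le_left.trans hXB)
    have g4 : (X ⊔ span ℂ {v}) ⊓ (R ⊔ span ℂ {v}) = (R ⊔ span ℂ {v}) ⊓ J v P Q := by
      apply Submodule.eq_of_le_of_finrank_le g3
      omega
    rw [← g4]
    exact inf_le_left
  have k1 := key P hP' hPR (sup_le (le_sup_left.trans le_sup_left) le_sup_right)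
  have k2 := key Q hQ' hQR (sup_le (le_sup_right.trans le_sup_left) le_sup_right)
  have h6 := Submodule.finrank_sup_add_finrank_inf_eq (P ⊔ span ℂ {v}) (Q ⊔ span ℂ {v})
  rw [← J_eq] at h6
  have h7 : (R ⊔ span ℂ {v}) ⊓ J v P Q = (P ⊔ span ℂ {v}) ⊓ (Q ⊔ span ℂ {v}) := by
    apply Submodule.eq_of_le_of_finrank_le (le_inf k1 k2)
    omega
  obtain ⟨z, hz0, hzP, hzQ, hzl⟩ := exists_z hV hC hP hIP hQ hIQ hPQ
  have hzR' : z ∈ (R ⊔ span ℂ {v}) ⊓ J v P Q := by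
    rw [h7]
    exact ⟨mem_sup_left hzP, mem_sup_left hzQ⟩
  have hzR : z ∈ R := hC.mem_of hIR hzR'.1 hzl (hIP z hzP)
  apply hz0
  apply hS
  intro w
  have hw : w ∈ (R ⊔ span ℂ {v}) ⊔ J v P Q := by rw [htop]; trivial
  obtain ⟨x, hx, y, hy, rfl⟩ := mem_sup.mp hw
  have hx' : x ∈ R ⊔ R ⊔ span ℂ {v} := by rw [sup_idem]; exact hx
  rw [map_add, hC.tt hIR hIR hzR hzR hzl hx', hC.tt hIP hIQ hzP hzQ hzl hy, add_zero]

/-- three planes through one point of the hyperplane: the quadratic form at the point vanishes on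
their join with the centre -/
lemma cone (hV : finrank ℂ V = 6) (hC : Cyc S v l) {P Q R : Submodule ℂ V}
    (hP : finrank ℂ P = 3) (hIP : S.Iso P) (hQ : finrank ℂ Q = 3) (hIQ : S.Iso Q)
    (hIR : S.Iso R) (hne : ¬ Q ≤ P ⊔ span ℂ {v}) (hPQ : J v P Q ≠ ⊤)
    (hRP : ¬ R ≤ P ⊔ span ℂ {v}) (hRQ : ¬ R ≤ Q ⊔ span ℂ {v}) (hRB : R ≤ J v P Q)
    {z : V} (hzP : z ∈ P) (hzQ : z ∈ Q) (hzR : z ∈ R) (hzl : l z = 0) :
    ∀ x ∈ J v P Q, ∀ y ∈ J v P Q, S.T z x y = 0 := by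
  have hB := five hV hC hP hIP hne hPQ
  have hP' := hC.four hP hIP
  have hQ' := hC.four hQ hIQ
  have hzv : ∀ y, S.T z v y = 0 := hC.zv hzl
  have hzv' : ∀ y, S.T z y v = 0 := fun y => by rw [S.s23]; exact hzv y
  -- a vector of `R` outside the two hyperplanes
  obtain ⟨r, hrR, hr1, hr2⟩ : ∃ r ∈ R, r ∉ P ⊔ span ℂ {v} ∧ r ∉ Q ⊔ span ℂ {v} := by
    obtain ⟨a, haR, ha⟩ := Set.not_subset.mp hRP
    obtain ⟨b, hbR, hb⟩ := Set.not_subset.mp hRQ
    by_cases ha2 : a ∈ Q ⊔ span ℂ {v}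
    · by_cases hb2 : b ∈ P ⊔ span ℂ {v}
      · refine ⟨a + b, R.add_mem haR hbR, fun h => ha ?_, fun h => hb ?_⟩
        · have := (P ⊔ span ℂ {v}).sub_mem h hb2
          rwa [add_sub_cancel_right] at this
        · have := (Q ⊔ span ℂ {v}).sub_mem h ha2
          rwa [add_sub_cancel_left] at this
      · exact ⟨b, hbR, hb2, hb⟩
    · exact ⟨a, haR, ha, ha2⟩
  obtain ⟨y, hy, w, hw, hr⟩ := mem_sup.mp (hRB hrR)
  obtain ⟨p, hp, q, hq, rfl⟩ := mem_sup.mp hy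
  obtain ⟨t, rfl⟩ := mem_span_singleton.mp hw
  have hvP : v ∈ P ⊔ span ℂ {v} := mem_sup_right (mem_span_singleton_self v)
  have hvQ : v ∈ Q ⊔ span ℂ {v} := mem_sup_right (mem_span_singleton_self v)
  have hqP : q ∉ P ⊔ span ℂ {v} := by
    intro h
    apply hr1
    rw [← hr]
    exact add_mem (add_mem (mem_sup_left hp) h) (smul_mem _ t hvP)
  have hpQ : p ∉ Q ⊔ span ℂ {v} := by
    intro h
    apply hr2
    rw [← hr]
    exact add_mem (add_mem h (mem_sup_left hq)) (smul_mem _ t hvQ)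
  have hpq : S.T z p q = 0 := by
    have h1 := hIR.three hzR hrR hrR
    rw [← hr] at h1
    simp only [map_add, map_smul, LinearMap.add_apply, LinearMap.smul_apply, smul_eq_mul, hzv,
      hzv', hIP.three hzP hp hp, hIQ.three hzQ hq hq, S.s23 z q p] at h1
    linear_combination (1 / 2 : ℂ) * h1
  -- decomposition of `P` and `Q`
  have dec : ∀ (X Y : Submodule ℂ V) (x : V), finrank ℂ X = 3 → finrank ℂ ↥(Y ⊔ span ℂ {v}) = 4 →
      finrank ℂ ↥(J v X Y) = 5 → x ∈ X → x ∉ Y ⊔ span ℂ {v} →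
      (X ⊓ (Y ⊔ span ℂ {v})) ⊔ span ℂ {x} = X := by
    intro X Y x hX hY hJ hx hxY
    have g1 := Submodule.finrank_sup_add_finrank_inf_eq X (Y ⊔ span ℂ {v})
    rw [← sup_assoc] at g1
    have g2 : finrank ℂ ↥(X ⊔ Y ⊔ span ℂ {v}) = 5 := hJ
    have g3 : x ∉ X ⊓ (Y ⊔ span ℂ {v}) := fun h => hxY h.2
    apply Submodule.eq_of_le_of_finrank_le
    · exact sup_le inf_le_left (span_le.mpr (Set.singleton_subset_iff.mpr hx))
    · rw [finrank_sup_single g3]
      omega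
  have dP := dec P Q p hP hQ' hB hp hpQ
  have dQ := dec Q P q hQ hP' (by rw [J_comm]; exact hB) hq hqP
  have hPQb : ∀ x ∈ P, ∀ y ∈ Q, S.T z x y = 0 := by
    intro x hx y hy
    rw [← dP] at hx
    rw [← dQ] at hy
    obtain ⟨x', hx', x2, hx2, rfl⟩ := mem_sup.mp hx
    obtain ⟨a, rfl⟩ := mem_span_singleton.mp hx2
    obtain ⟨y', hy', y2, hy2, rfl⟩ := mem_sup.mp hy
    obtain ⟨c, rfl⟩ := mem_span_singleton.mp hy2
    have g1 : ∀ u ∈ Q, S.T z x' u = 0 := by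
      intro u hu
      obtain ⟨q1, hq1, w1, hw1, h1⟩ := mem_sup.mp hx'.2
      obtain ⟨s, rfl⟩ := mem_span_singleton.mp hw1
      rw [← h1]
      simp only [map_add, map_smul, LinearMap.add_apply, LinearMap.smul_apply, smul_eq_mul, hzv,
        hIQ.three hzQ hq1 hu]
      ring
    have g2 : S.T z p y' = 0 := by
      obtain ⟨p1, hp1, w1, hw1, h1⟩ := mem_sup.mp hy'.2
      obtain ⟨s, rfl⟩ := mem_span_singleton.mp hw1
      rw [← h1]
      simp only [map_add, map_smul, smul_eq_mul, hzv', hIP.three hzP hp hp1]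
      ring
    simp only [map_add, map_smul, LinearMap.add_apply, LinearMap.smul_apply, smul_eq_mul,
      g1 y' hy'.1, g1 q hq, g2, hpq]
    ring
  intro x hx y hy
  obtain ⟨x0, hx0, x3, hx3, rfl⟩ := mem_sup.mp hx
  obtain ⟨x1, hx1, x2, hx2, rfl⟩ := mem_sup.mp hx0
  obtain ⟨a, rfl⟩ := mem_span_singleton.mp hx3
  obtain ⟨y0, hy0, y3, hy3, rfl⟩ := mem_sup.mp hy
  obtain ⟨y1, hy1, y2, hy2, rfl⟩ := mem_sup.mp hy0
  obtain ⟨c, rfl⟩ := mem_span_singleton.mp hy3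
  simp only [map_add, map_smul, LinearMap.add_apply, LinearMap.smul_apply, smul_eq_mul, hzv, hzv',
    hIP.three hzP hx1 hy1, hIQ.three hzQ hx2 hy2, hPQb x1 hx1 y2 hy2, S.s23 z x2 y1,
    hPQb y1 hy1 x2 hx2]
  ring

lemma exists_e (hV : finrank ℂ V = 6) {B : Submodule ℂ V} (hB : finrank ℂ B = 5) :
    ∃ e, B ⊔ span ℂ {e} = ⊤ := by
  obtain ⟨e, he⟩ : ∃ e, e ∉ B := by
    apply exists_not_mem
    rw [hB, hV]
    norm_num
  refine ⟨e, ?_⟩
  apply Submodule.eq_top_of_finrank_eq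
  rw [finrank_sup_single he, hB, hV]

/-- in the cone case all planes pass through the vertex -/
lemma mem_all (hS : S.Smooth) (hV : finrank ℂ V = 6) (hC : Cyc S v l) {B : Submodule ℂ V}
    (hB : finrank ℂ B = 5) (hvB : v ∈ B) {z : V} (hzl : l z = 0) (hzB : z ∈ B)
    (hb : ∀ x ∈ B, ∀ y ∈ B, S.T z x y = 0) {R : Submodule ℂ V} (hR : finrank ℂ R = 3)
    (hIR : S.Iso R) (hRB : R ≤ B) : z ∈ R := by
  by_contra hzR
  have hzR' : z ∉ R ⊔ span ℂ {v} := fun h => hzR (hC.mem_of hIR h hzl (hb z hzB z hzB))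
  have h2 := hC.two_le hV hR
  obtain ⟨k, hk, hk0⟩ : ∃ k ∈ R ⊓ LinearMap.ker l, k ≠ 0 := by
    have : R ⊓ LinearMap.ker l ≠ ⊥ := by
      intro h
      rw [h, finrank_bot] at h2
      omega
    exact (Submodule.ne_bot_iff _).mp this
  have hkR : k ∈ R := hk.1
  have hkl : l k = 0 := hk.2
  have hzk : z ∉ span ℂ {k} := fun h =>
    hzR ((span_le.mpr (Set.singleton_subset_iff.mpr hkR)) h)
  have hBeq : R ⊔ span ℂ {v} ⊔ span ℂ {z} = B := by
    apply Submodule.eq_of_le_of_finrank_le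
    · exact sup_le (sup_le hRB (span_le.mpr (Set.singleton_subset_iff.mpr hvB)))
        (span_le.mpr (Set.singleton_subset_iff.mpr hzB))
    · rw [finrank_sup_single hzR', hC.four hR hIR, hB]
  obtain ⟨e, he⟩ := exists_e hV hB
  refine Cyc.sing_pair hS he hk0 hzk ?_ ?_ ?_
  · intro x hx
    rw [← hBeq] at hx
    obtain ⟨x0, hx0, x3, hx3, rfl⟩ := mem_sup.mp hx
    obtain ⟨x1, hx1, x2, hx2, rfl⟩ := mem_sup.mp hx0
    obtain ⟨a, rfl⟩ := mem_span_singleton.mp hx3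
    obtain ⟨c, rfl⟩ := mem_span_singleton.mp hx2
    have g1 : S.T k k z = 0 := by
      rw [← S.cyc]
      exact hb k (hRB hkR) k (hRB hkR)
    simp only [map_add, map_smul, smul_eq_mul, g1, hC.zzv hkl, hIR.two hkR hx1]
    ring
  · intro x hx
    rw [S.s12]
    exact hb k (hRB hkR) x hx
  · intro x hx
    exact hb z hzB x hx

/-- no three pairwise independent singular directions in the two-dimensional space `K` -/
lemma not_three (hS : S.Smooth) (hV : finrank ℂ V = 6) {B K : Submodule ℂ V}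
    (hB : finrank ℂ B = 5) (hK : finrank ℂ K = 2) {a b c : V} (ha : a ∈ K) (hb : b ∈ K)
    (hc : c ∈ K) (ha0 : a ≠ 0) (hab : b ∉ span ℂ {a}) (hac : c ∉ span ℂ {a})
    (hbc : c ∉ span ℂ {b}) (h1 : ∀ x ∈ B, S.T a a x = 0) (h2 : ∀ x ∈ B, S.T b b x = 0)
    (h3 : ∀ x ∈ B, S.T c c x = 0) : False := by
  have hspan : span ℂ {a} ⊔ span ℂ {b} = K := by
    apply Submodule.eq_of_le_of_finrank_le
    · exact sup_le (span_le.mpr (Set.singleton_subset_iff.mpr ha))
        (span_le.mpr (Set.singleton_subset_iff.mpr hb))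
    · rw [finrank_sup_single hab, finrank_span_singleton ha0, hK]
  rw [← hspan] at hc
  obtain ⟨x, hx, y, hy, hxy⟩ := mem_sup.mp hc
  obtain ⟨s, rfl⟩ := mem_span_singleton.mp hx
  obtain ⟨r, rfl⟩ := mem_span_singleton.mp hy
  have hs : s ≠ 0 := by
    rintro rfl
    apply hbc
    rw [← hxy, zero_smul, zero_add]
    exact smul_mem _ r (mem_span_singleton_self b)
  have hr : r ≠ 0 := by
    rintro rfl
    apply hac
    rw [← hxy, zero_smul, add_zero]
    exact smul_mem _ s (mem_span_singleton_self a)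
  obtain ⟨e, he⟩ := exists_e hV hB
  refine Cyc.sing_pair hS he ha0 hab h1 ?_ h2
  intro x hx
  have h4 := h3 x hx
  rw [← hxy, S.sq_add, h1 x hx, h2 x hx] at h4
  have h5 : (2 * s * r) * S.T a b x = 0 := by linear_combination h4
  rcases mul_eq_zero.mp h5 with h | h
  · exact absurd h (mul_ne_zero (mul_ne_zero two_ne_zero hs) hr)
  · exact h

/-- at most three planes have the same join with the centre -/
lemma card_fibre (hC : Cyc S v l) {s : Finset (Submodule ℂ V)}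
    (hs : ∀ P ∈ s, finrank ℂ P = 3 ∧ S.Iso P) {U : Submodule ℂ V}
    (hU : ∀ P ∈ s, P ⊔ span ℂ {v} = U) : s.card ≤ 3 := by
  classical
  have eq_of_le : ∀ P ∈ s, ∀ Q ∈ s, P ≤ Q → P = Q := by
    intro P hP Q hQ h
    apply Submodule.eq_of_le_of_finrank_le h
    rw [(hs P hP).1, (hs Q hQ).1]
  by_cases hcase : ∃ h ∈ U, l h = 0 ∧ S.T h h h ≠ 0
  · obtain ⟨h, hhU, hhl, hh⟩ := hcase
    have hex : ∀ P : Submodule ℂ V, ∃ t : ℂ, P ∈ s → h + t • v ∈ P := by
      intro P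
      by_cases hP : P ∈ s
      · have h1 : h ∈ P ⊔ span ℂ {v} := by rw [hU P hP]; exact hhU
        obtain ⟨p, hp, w, hw, hpw⟩ := mem_sup.mp h1
        obtain ⟨t, rfl⟩ := mem_span_singleton.mp hw
        refine ⟨-t, fun _ => ?_⟩
        rw [← hpw, neg_smul, add_neg_cancel_right]
        exact hp
      · exact ⟨0, fun h => absurd h hP⟩
    choose t ht using hex
    have hcube : ∀ P ∈ s, t P ^ 3 = -(S.T h h h) / S.T v v v := by
      intro P hP
      have h1 := (hs P hP).2 _ (ht P hP)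
      have h2 := S.cube_add 1 (t P) h v
      rw [one_smul, h1, hC.zzv hhl, hC.zvv hhl] at h2
      rw [eq_div_iff hC.ne]
      linear_combination -h2
    have hinj : Set.InjOn t (s : Set (Submodule ℂ V)) := by
      intro P hP Q hQ hPQ
      have hP' : P ∈ s := hP
      have hQ' : Q ∈ s := hQ
      have h1 := ht P hP'
      have h2 := ht Q hQ'
      rw [← hPQ] at h2
      have hqv : S.T (h + t P • v) (h + t P • v) v = t P ^ 2 * S.T v v v := by
        have h3 := S.sq_add 1 (t P) h v v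
        rw [one_smul, hC.zzv hhl, hC.zvv hhl] at h3
        rw [h3]
        ring
      have ht0 : t P ≠ 0 := by
        intro h0
        have h3 := hcube P hP'
        rw [h0, eq_div_iff hC.ne] at h3
        apply hh
        linear_combination h3
      apply eq_of_le P hP' Q hQ'
      intro x hx
      have hx' : x ∈ Q ⊔ span ℂ {v} := by
        rw [hU Q hQ', ← hU P hP']
        exact mem_sup_left hx
      obtain ⟨y, hy, w, hw, hyw⟩ := mem_sup.mp hx'
      obtain ⟨r, rfl⟩ := mem_span_singleton.mp hw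
      have h4 := (hs P hP').2.two h1 hx
      rw [← hyw, map_add, map_smul, (hs Q hQ').2.two h2 hy, hqv, smul_eq_mul, zero_add] at h4
      have hr : r = 0 := by
        rcases mul_eq_zero.mp h4 with h5 | h5
        · exact h5
        · exact absurd h5 (mul_ne_zero (pow_ne_zero 2 ht0) hC.ne)
      rw [← hyw, hr, zero_smul, add_zero]
      exact hy
    have hsub : s.image t ⊆ (Polynomial.nthRoots 3 (-(S.T h h h) / S.T v v v)).toFinset := by
      intro x hx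
      obtain ⟨P, hP, rfl⟩ := Finset.mem_image.mp hx
      rw [Multiset.mem_toFinset, Polynomial.mem_nthRoots (by norm_num)]
      exact hcube P hP
    calc s.card = (s.image t).card := (Finset.card_image_of_injOn hinj).symm
      _ ≤ (Polynomial.nthRoots 3 (-(S.T h h h) / S.T v v v)).toFinset.card :=
          Finset.card_le_card hsub
      _ ≤ (Polynomial.nthRoots 3 (-(S.T h h h) / S.T v v v)).card := Multiset.toFinset_card_le _
      _ ≤ 3 := Polynomial.card_nthRoots 3 _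
  · push Not at hcase
    have h1 : s.card ≤ 1 := by
      rw [Finset.card_le_one]
      intro P hP Q hQ
      apply eq_of_le P hP Q hQ
      intro p hp
      have hpU : p ∈ U := by
        rw [← hU P hP]
        exact mem_sup_left hp
      have hvU : v ∈ U := by
        rw [← hU P hP]
        exact mem_sup_right (mem_span_singleton_self v)
      set h := p + (-(l p)) • v with hh
      have hhU : h ∈ U := add_mem hpU (smul_mem _ _ hvU)
      have hhl : l h = 0 := by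
        rw [hh, map_add, map_smul, hC.one, smul_eq_mul]
        ring
      have h2 := hcase h hhU hhl
      have h3 := S.cube_add 1 (l p) h v
      have h4 : (1 : ℂ) • h + l p • v = p := by
        rw [hh, one_smul, neg_smul, neg_add_cancel_right]
      rw [h4, (hs P hP).2 p hp, h2, hC.zzv hhl, hC.zvv hhl] at h3
      have h5 : l p ^ 3 * S.T v v v = 0 := by linear_combination -h3
      have h6 : l p = 0 := by
        rcases mul_eq_zero.mp h5 with h | h
        · exact pow_eq_zero_iff (by norm_num) |>.mp h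
        · exact absurd h hC.ne
      refine hC.mem_of (hs Q hQ).2 ?_ h6 ((hs P hP).2 p hp)
      rw [hU Q hQ]
      exact hpU
    omega

/-- **Ten planes, not all through one point.** -/
theorem ten (hS : S.Smooth) (hV : finrank ℂ V = 6) (hC : Cyc S v l)
    {s : Finset (Submodule ℂ V)} (hs : ∀ P ∈ s, finrank ℂ P = 3 ∧ S.Iso P) (h10 : 10 ≤ s.card)
    (hcom : ∀ z, z ≠ 0 → l z = 0 → (∀ P ∈ s, z ∈ P) →
      ¬ ∀ x y, S.T z z x = 0 → S.T z z y = 0 → S.T z x y = 0) :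
    ∃ P ∈ s, ∃ Q ∈ s, P ⊔ Q ⊔ span ℂ {v} = ⊤ := by
  classical
  by_contra hcon
  have hns : ∀ P ∈ s, ∀ Q ∈ s, J v P Q ≠ ⊤ := fun P hP Q hQ h => hcon ⟨P, hP, Q, hQ, h⟩
  -- four orbits
  have him : 4 ≤ (s.image (fun P => P ⊔ span ℂ {v})).card := by
    have h1 := Finset.card_le_mul_card_image (f := fun P => P ⊔ span ℂ {v}) s 3
      (fun U _ => card_fibre hC (s := s.filter (fun P => P ⊔ span ℂ {v} = U)) (U := U)
        (fun P hP => hs P (Finset.mem_filter.mp hP).1) (fun P hP => (Finset.mem_filter.mp hP).2))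
    omega
  obtain ⟨U1, hU1⟩ : (s.image (fun P => P ⊔ span ℂ {v})).Nonempty := by
    rw [← Finset.card_pos]
    omega
  have h3 : 2 < ((s.image (fun P => P ⊔ span ℂ {v})).erase U1).card := by
    rw [Finset.card_erase_of_mem hU1]
    omega
  obtain ⟨U2, hU2, U3, hU3, U4, hU4, h23, h24, h34⟩ := Finset.two_lt_card.mp h3
  obtain ⟨h21, hW2⟩ := Finset.mem_erase.mp hU2
  obtain ⟨h31, hW3⟩ := Finset.mem_erase.mp hU3
  obtain ⟨h41, hW4⟩ := Finset.mem_erase.mp hU4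
  clear hU2 hU3 hU4
  obtain ⟨P1, hP1, rfl⟩ := Finset.mem_image.mp hU1
  obtain ⟨P2, hP2, rfl⟩ := Finset.mem_image.mp hW2
  obtain ⟨P3, hP3, rfl⟩ := Finset.mem_image.mp hW3
  obtain ⟨P4, hP4, rfl⟩ := Finset.mem_image.mp hW4
  have hle : ∀ P ∈ s, ∀ Q ∈ s, Q ⊔ span ℂ {v} ≠ P ⊔ span ℂ {v} → ¬ Q ≤ P ⊔ span ℂ {v} := by
    intro P hP Q hQ hne h
    apply hne
    apply Submodule.eq_of_le_of_finrank_le (sup_le h le_sup_right)
    rw [hC.four (hs P hP).1 (hs P hP).2, hC.four (hs Q hQ).1 (hs Q hQ).2]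
  -- no point on three of them
  have triple : ∀ P ∈ s, ∀ Q ∈ s, ∀ R ∈ s, Q ⊔ span ℂ {v} ≠ P ⊔ span ℂ {v} →
      R ⊔ span ℂ {v} ≠ P ⊔ span ℂ {v} → R ⊔ span ℂ {v} ≠ Q ⊔ span ℂ {v} →
      ∀ z, z ≠ 0 → z ∈ P → z ∈ Q → z ∈ R → l z = 0 → False := by
    intro P hP Q hQ R hR hQP hRP hRQ z hz0 hzP hzQ hzR hzl
    have hB := five hV hC (hs P hP).1 (hs P hP).2 (hle P hP Q hQ hQP) (hns P hP Q hQ)
    have hall : ∀ U ∈ s, U ≤ J v P Q := fun U hU => le_J hS hV hC (hs P hP).1 (hs P hP).2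
      (hs Q hQ).1 (hs Q hQ).2 (hs U hU).1 (hs U hU).2 (hle P hP Q hQ hQP) (hns P hP Q hQ)
      (hns P hP U hU) (hns Q hQ U hU)
    have hb := cone hV hC (hs P hP).1 (hs P hP).2 (hs Q hQ).1 (hs Q hQ).2 (hs R hR).2
      (hle P hP Q hQ hQP) (hns P hP Q hQ) (hle P hP R hR hRP) (hle Q hQ R hR hRQ) (hall R hR)
      hzP hzQ hzR hzl
    have hzB : z ∈ J v P Q := hall P hP hzP
    have hvB : v ∈ J v P Q := mem_sup_right (mem_span_singleton_self v)
    refine hcom z hz0 hzl (fun U hU => mem_all hS hV hC hB hvB hzl hzB hb (hs U hU).1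
      (hs U hU).2 (hall U hU)) ?_
    -- `z` is an Eckardt point
    have hker : ∀ x, S.T z z x = 0 → x ∈ J v P Q := by
      intro x hx
      obtain ⟨e, he⟩ := exists_e hV hB
      have hx' : x ∈ J v P Q ⊔ span ℂ {e} := by rw [he]; trivial
      obtain ⟨y, hy, w, hw, rfl⟩ := mem_sup.mp hx'
      obtain ⟨c, rfl⟩ := mem_span_singleton.mp hw
      rw [map_add, map_smul, hb z hzB y hy, zero_add, smul_eq_mul] at hx
      rcases mul_eq_zero.mp hx with h | h
      · rw [h, zero_smul, add_zero]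
        exact hy
      · exfalso
        apply hz0
        apply hS
        intro w
        have hw : w ∈ J v P Q ⊔ span ℂ {e} := by rw [he]; trivial
        obtain ⟨y, hy, u, hu, rfl⟩ := mem_sup.mp hw
        obtain ⟨c, rfl⟩ := mem_span_singleton.mp hu
        rw [map_add, map_smul, hb z hzB y hy, h, smul_zero, add_zero]
    intro x y hx hy
    exact hb x (hker x hx) y (hker y hy)
  obtain ⟨z2, hz20, hz21, hz22, hz2l⟩ := exists_z hV hC (hs P1 hP1).1 (hs P1 hP1).2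
    (hs P2 hP2).1 (hs P2 hP2).2 (hns P1 hP1 P2 hP2)
  obtain ⟨z3, hz30, hz31, hz33, hz3l⟩ := exists_z hV hC (hs P1 hP1).1 (hs P1 hP1).2
    (hs P3 hP3).1 (hs P3 hP3).2 (hns P1 hP1 P3 hP3)
  obtain ⟨z4, hz40, hz41, hz44, hz4l⟩ := exists_z hV hC (hs P1 hP1).1 (hs P1 hP1).2
    (hs P4 hP4).1 (hs P4 hP4).2 (hns P1 hP1 P4 hP4)
  have hB := five hV hC (hs P1 hP1).1 (hs P1 hP1).2 (hle P1 hP1 P2 hP2 h21) (hns P1 hP1 P2 hP2)
  have hK := two_eq hS hV hC (hs P1 hP1).1 (hs P1 hP1).2 (hs P2 hP2).1 (hs P2 hP2).2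
    (hle P1 hP1 P2 hP2 h21) (hns P1 hP1 P2 hP2)
  have hJ : ∀ Q ∈ s, Q ⊔ span ℂ {v} ≠ P1 ⊔ span ℂ {v} → J v P1 P2 ≤ J v P1 Q := by
    intro Q hQ hne
    have h1 : J v P1 Q ≤ J v P1 P2 := by
      refine sup_le (sup_le (le_sup_left.trans le_sup_left) ?_) le_sup_right
      exact le_J hS hV hC (hs P1 hP1).1 (hs P1 hP1).2 (hs P2 hP2).1 (hs P2 hP2).2 (hs Q hQ).1
        (hs Q hQ).2 (hle P1 hP1 P2 hP2 h21) (hns P1 hP1 P2 hP2) (hns P1 hP1 Q hQ)
        (hns P2 hP2 Q hQ)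
    have h2 := five hV hC (hs P1 hP1).1 (hs P1 hP1).2 (hle P1 hP1 Q hQ hne) (hns P1 hP1 Q hQ)
    have h3 : J v P1 Q = J v P1 P2 := by
      apply Submodule.eq_of_le_of_finrank_le h1
      rw [h2, hB]
    rw [h3]
  refine not_three hS hV hB hK ⟨hz21, hz2l⟩ ⟨hz31, hz3l⟩ ⟨hz41, hz4l⟩ hz20 ?_ ?_ ?_ ?_ ?_ ?_
  · intro h
    exact triple P1 hP1 P2 hP2 P3 hP3 h21 h31 (Ne.symm h23) z3 hz30 hz31
      ((span_le.mpr (Set.singleton_subset_iff.mpr hz22)) h) hz33 hz3l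
  · intro h
    exact triple P1 hP1 P2 hP2 P4 hP4 h21 h41 (Ne.symm h24) z4 hz40 hz41
      ((span_le.mpr (Set.singleton_subset_iff.mpr hz22)) h) hz44 hz4l
  · intro h
    exact triple P1 hP1 P3 hP3 P4 hP4 h31 h41 (Ne.symm h34) z4 hz40 hz41
      ((span_le.mpr (Set.singleton_subset_iff.mpr hz33)) h) hz44 hz4l
  · intro x hx
    exact hC.tt (hs P1 hP1).2 (hs P2 hP2).2 hz21 hz22 hz2l hx
  · intro x hx
    exact hC.tt (hs P1 hP1).2 (hs P3 hP3).2 hz31 hz33 hz3l (hJ P3 hP3 h31 hx)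
  · intro x hx
    exact hC.tt (hs P1 hP1).2 (hs P4 hP4).2 hz41 hz44 hz4l (hJ P4 hP4 h41 hx)

end planes

end Vale.Agent.P287.R2.H847
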