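import Mathlib

/-!
P287: a nonconstant polynomial in two variables over the complex numbers has infinitely many zeros.
-/

namespace Vale.Agent.P287.R2.H847

open MvPolynomial

lemma eval_line (f : MvPolynomial (Fin 2) ℂ) (g : Fin 2 → Polynomial ℂ) (s : ℂ) :
    Polynomial.eval s (aeval g f) = eval (fun k => Polynomial.eval s (g k)) f := by
  induction f using MvPolynomial.induction_on with
  | C a => simp
  | add p q hp hq => simp [hp, hq]
  | mul_X p n hp => simp [hp]

/-- finitely many zeros: the polynomial does not depend on the coordinate `i` -/
lemma update_eq {f : MvPolynomial (Fin 2) ℂ} (hZ : {x : Fin 2 → ℂ | eval x f = 0}.Finite)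
    {i j : Fin 2} (hij : j ≠ i) (x : Fin 2 → ℂ) (t : ℂ) :
    eval (Function.update x i t) f = eval x f := by
  set B : Set ℂ := (fun y : Fin 2 → ℂ => y j) '' {x : Fin 2 → ℂ | eval x f = 0} with hB
  have hBfin : B.Finite := hZ.image _
  -- the line in the direction `i`
  have hline : ∀ y : Fin 2 → ℂ, y j ∉ B → eval (Function.update y i t) f = eval y f := by
    intro y hy
    set g : Fin 2 → Polynomial ℂ := fun k => if k = i then Polynomial.X else Polynomial.C (y k)
      with hg
    have hev : ∀ s : ℂ, Polynomial.eval s (aeval g f) = eval (Function.update y i s) f := by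
      intro s
      rw [eval_line]
      congr 1
      congr 1
      funext k
      by_cases hk : k = i
      · subst hk
        simp [hg]
      · simp [hg, hk]
    have hdeg : (aeval g f).degree = 0 := by
      by_contra hd
      obtain ⟨s, hs⟩ := IsAlgClosed.exists_root (aeval g f) hd
      apply hy
      refine ⟨Function.update y i s, ?_, ?_⟩
      · show eval (Function.update y i s) f = 0
        rw [← hev s]
        exact hs
      · show Function.update y i s j = y j
        rw [Function.update_of_ne hij]
    have hC := Polynomial.eq_C_of_degree_eq_zero hdeg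
    have h1 := hev t
    have h2 := hev (y i)
    rw [Function.update_eq_self] at h2
    rw [← h1, ← h2, hC, Polynomial.eval_C, Polynomial.eval_C]
  -- the line in the direction `j`
  set g1 : Fin 2 → Polynomial ℂ := fun k => if k = j then Polynomial.X else Polynomial.C (x k)
    with hg1
  set g2 : Fin 2 → Polynomial ℂ := fun k => if k = j then Polynomial.X else Polynomial.C t with hg2
  have hev1 : ∀ s : ℂ, Polynomial.eval s (aeval g1 f) = eval (Function.update x j s) f := by
    intro s
    rw [eval_line]
    congr 1
    congr 1
    funext k
    by_cases hk : k = j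
    · subst hk
      simp [hg1]
    · simp [hg1, hk]
  have hother : ∀ k : Fin 2, k ≠ j → k = i := by
    intro k hk
    fin_cases i <;> fin_cases j <;> fin_cases k <;> simp_all
  have hev2 : ∀ s : ℂ, Polynomial.eval s (aeval g2 f) =
      eval (Function.update (Function.update x j s) i t) f := by
    intro s
    rw [eval_line]
    congr 1
    congr 1
    funext k
    by_cases hk : k = j
    · subst hk
      simp [hg2, Function.update_of_ne hij]
    · have hki := hother k hk
      subst hki
      simp [hg2, hk]
  have hpq : aeval g2 f = aeval g1 f := by
    apply Polynomial.eq_of_infinite_eval_eq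
    refine Set.Infinite.mono ?_ hBfin.infinite_compl
    intro s hs
    show Polynomial.eval s (aeval g2 f) = Polynomial.eval s (aeval g1 f)
    rw [hev1, hev2]
    apply hline
    rw [Function.update_self]
    exact hs
  have h1 := hev1 (x j)
  have h2 := hev2 (x j)
  rw [Function.update_eq_self] at h1 h2
  rw [← h1, ← h2, hpq]

/-- ROW I: infinitely many zeros. -/
theorem row_I (f : MvPolynomial (Fin 2) ℂ) (hf : 0 < f.totalDegree) (N : ℕ) :
    ∃ s : Finset (Fin 2 → ℂ), s.card = N ∧ ∀ x ∈ s, eval x f = 0 := by
  have hinf : {x : Fin 2 → ℂ | eval x f = 0}.Infinite := by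
    intro hZ
    have hall : ∀ x : Fin 2 → ℂ, eval x f = eval 0 f := by
      intro x
      have h1 := update_eq hZ (i := 0) (j := 1) (by decide) x 0
      have h2 := update_eq hZ (i := 1) (j := 0) (by decide) (Function.update x 0 0) 0
      rw [← h1, ← h2]
      congr 1
      congr 1
      funext k
      fin_cases k
      · simp
      · simp
    have hfC : f = C (eval 0 f) := by
      apply MvPolynomial.funext
      intro x
      rw [hall x, eval_C]
    rw [hfC, totalDegree_C] at hf
    exact lt_irrefl 0 hf
  obtain ⟨s, hs, hcard⟩ := hinf.exists_subset_card_eq N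
  exact ⟨s, hcard, fun x hx => hs hx⟩

end Vale.Agent.P287.R2.H847
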