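import Vale.Agent.P287.R2.H847.RowS1

/-! P287, row S3 of helper992 (helper847): the cubic `F0` contains 27 planes. -/

namespace Vale.Agent.P287.R2.H847.S1

open Module Submodule MvPolynomial
open Vale.Agent.P287.R2.H248

/-- partner of `0` -/
def pj (t : Fin 3) : Fin 6 := ![1, 2, 3] t
/-- first of the other two -/
def pk (t : Fin 3) : Fin 6 := ![2, 1, 1] t
/-- second of the other two -/
def pl (t : Fin 3) : Fin 6 := ![3, 3, 2] t

/-- three linear equations -/
noncomputable def eqs (t : Fin 3) (a b : ℂ) : A6 →ₗ[ℂ] (Fin 3 → ℂ) :=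
  LinearMap.pi ![LinearMap.proj 4, LinearMap.proj 0 + a • LinearMap.proj (pj t),
    LinearMap.proj (pk t) + b • LinearMap.proj (pl t)]

lemma eqs_0 (t : Fin 3) (a b : ℂ) (v : A6) : eqs t a b v 0 = v 4 := rfl
lemma eqs_1 (t : Fin 3) (a b : ℂ) (v : A6) : eqs t a b v 1 = v 0 + a * v (pj t) := rfl
lemma eqs_2 (t : Fin 3) (a b : ℂ) (v : A6) : eqs t a b v 2 = v (pk t) + b * v (pl t) := rfl

lemma mem_eqs (t : Fin 3) (a b : ℂ) (v : A6) : v ∈ LinearMap.ker (eqs t a b) ↔
    v 4 = 0 ∧ v 0 + a * v (pj t) = 0 ∧ v (pk t) + b * v (pl t) = 0 := by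
  rw [LinearMap.mem_ker]
  constructor
  · intro h
    exact ⟨congrFun h 0, congrFun h 1, congrFun h 2⟩
  · rintro ⟨h0, h1, h2⟩
    funext i
    fin_cases i
    · exact h0
    · exact h1
    · exact h2

lemma surj (t : Fin 3) (a b : ℂ) : Function.Surjective (eqs t a b) := by
  intro y
  refine ⟨Pi.single 4 (y 0) + Pi.single 0 (y 1) + Pi.single (pk t) (y 2), ?_⟩
  funext i
  fin_cases i
  · change (Pi.single 4 (y 0) + Pi.single 0 (y 1) + Pi.single (pk t) (y 2) : A6) 4 = y 0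
    fin_cases t <;> simp [pk, Pi.single_apply]
  · change (Pi.single 4 (y 0) + Pi.single 0 (y 1) + Pi.single (pk t) (y 2) : A6) 0 + a *
      (Pi.single 4 (y 0) + Pi.single 0 (y 1) + Pi.single (pk t) (y 2) : A6) (pj t) = y 1
    fin_cases t <;> simp [pk, pj, Pi.single_apply]
  · change (Pi.single 4 (y 0) + Pi.single 0 (y 1) + Pi.single (pk t) (y 2) : A6) (pk t) + b *
      (Pi.single 4 (y 0) + Pi.single 0 (y 1) + Pi.single (pk t) (y 2) : A6) (pl t) = y 2
    fin_cases t <;> simp [pk, pl, Pi.single_apply]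

lemma finrank_ker (t : Fin 3) (a b : ℂ) : finrank ℂ (LinearMap.ker (eqs t a b)) = 3 := by
  have h1 := LinearMap.finrank_range_add_finrank_ker (eqs t a b)
  rw [LinearMap.range_eq_top.2 (surj t a b), finrank_top] at h1
  have h2 : finrank ℂ A6 = 6 := by simp [A6]
  have h3 : finrank ℂ (Fin 3 → ℂ) = 3 := by simp
  omega

lemma eval_F0 (v : A6) : eval v F0 = v 0 ^ 3 + v 1 ^ 3 + v 2 ^ 3 + v 3 ^ 3 + v 4 * v 5 ^ 2 +
    v 4 ^ 2 * (v 1 + 2 * v 2 + 3 * v 3) := by
  simp [F0]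

lemma plane (t : Fin 3) {a b : ℂ} (ha : a ^ 3 = 1) (hb : b ^ 3 = 1) :
    IsPlaneIn F0 (LinearMap.ker (eqs t a b)) := by
  refine ⟨finrank_ker t a b, ?_⟩
  intro v hv
  obtain ⟨h4, h0, hk⟩ := (mem_eqs t a b v).1 hv
  rw [eval_F0, h4]
  have e0 : v 0 ^ 3 = - v (pj t) ^ 3 := by
    have : v 0 = - (a * v (pj t)) := by linear_combination h0
    rw [this]
    linear_combination - v (pj t) ^ 3 * ha
  have ek : v (pk t) ^ 3 = - v (pl t) ^ 3 := by
    have : v (pk t) = - (b * v (pl t)) := by linear_combination hk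
    rw [this]
    linear_combination - v (pl t) ^ 3 * hb
  fin_cases t
  · have e0' : v 0 ^ 3 = - v 1 ^ 3 := e0
    have ek' : v 2 ^ 3 = - v 3 ^ 3 := ek
    linear_combination e0' + ek'
  · have e0' : v 0 ^ 3 = - v 2 ^ 3 := e0
    have ek' : v 1 ^ 3 = - v 3 ^ 3 := ek
    linear_combination e0' + ek'
  · have e0' : v 0 ^ 3 = - v 3 ^ 3 := e0
    have ek' : v 1 ^ 3 = - v 2 ^ 3 := ek
    linear_combination e0' + ek'

lemma inj {t t' : Fin 3} {a b a' b' : ℂ} (ha : a ≠ 0)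
    (h : LinearMap.ker (eqs t a b) = LinearMap.ker (eqs t' a' b')) : t = t' ∧ a = a' ∧ b = b' := by
  have hu : (Pi.single 0 (-a) + Pi.single (pj t) 1 : A6) ∈ LinearMap.ker (eqs t a b) := by
    rw [mem_eqs]
    fin_cases t <;> simp [pj, pk, pl, Pi.single_apply]
  have hw : (Pi.single (pk t) (-b) + Pi.single (pl t) 1 : A6) ∈ LinearMap.ker (eqs t a b) := by
    rw [mem_eqs]
    fin_cases t <;> simp [pj, pk, pl, Pi.single_apply]
  rw [h, mem_eqs] at hu hw
  have h1 := hu.2.1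
  have ht : t = t' := by
    by_contra hne
    apply ha
    fin_cases t <;> fin_cases t' <;> simp [pj, Pi.single_apply] at h1 hne <;> simp_all
  subst ht
  refine ⟨rfl, ?_, ?_⟩
  · have h2 : -a + a' = 0 := by
      fin_cases t <;> simpa [pj, Pi.single_apply] using h1
    linear_combination -h2
  · have h3 := hw.2.2
    have h2 : -b + b' = 0 := by
      fin_cases t <;> simpa [pk, pl, Pi.single_apply] using h3
    linear_combination -h2

/-- ROW S3. -/
theorem row_S3 : ∃ s : Finset (Submodule ℂ A6), s.card = 27 ∧ ∀ P ∈ s, IsPlaneIn F0 P := by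
  classical
  have hμ : (Polynomial.nthRootsFinset 3 (1 : ℂ)).card = 3 :=
    (Complex.isPrimitiveRoot_exp 3 (by norm_num)).card_nthRootsFinset
  have hm : ∀ x : ℂ, x ∈ Polynomial.nthRootsFinset 3 (1 : ℂ) ↔ x ^ 3 = 1 := fun x =>
    Polynomial.mem_nthRootsFinset (by norm_num) 1
  refine ⟨((Finset.univ : Finset (Fin 3)) ×ˢ (Polynomial.nthRootsFinset 3 (1 : ℂ) ×ˢ
    Polynomial.nthRootsFinset 3 (1 : ℂ))).image
      (fun z => LinearMap.ker (eqs z.1 z.2.1 z.2.2)), ?_, ?_⟩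
  · rw [Finset.card_image_of_injOn, Finset.card_product, Finset.card_product, hμ,
      Finset.card_univ, Fintype.card_fin]
    rintro ⟨t, a, b⟩ h1 ⟨t', a', b'⟩ h2 h
    have ha : a ^ 3 = 1 := by
      have := (Finset.mem_product.1 (Finset.mem_product.1 (Finset.mem_coe.1 h1)).2).1
      exact (hm a).1 this
    have ha0 : a ≠ 0 := by
      rintro rfl
      norm_num at ha
    obtain ⟨rfl, rfl, rfl⟩ := inj ha0 h
    rfl
  · intro P hP
    obtain ⟨⟨t, a, b⟩, hz, rfl⟩ := Finset.mem_image.1 hP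
    have h2 := Finset.mem_product.1 (Finset.mem_product.1 hz).2
    exact plane t ((hm a).1 h2.1) ((hm b).1 h2.2)

end Vale.Agent.P287.R2.H847.S1
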