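import Vale.Agent.P287.R2.H847.TenF
import Vale.Agent.P287.R2.H389.CyclicSum
import Vale.Agent.P287.R2.H697.EckardtMany

/-!
P287: cyclic cubic fourfolds with many planes contain two disjoint planes. `C^6 = A ⊕ B` with
`dim A = 1` and `F (a + b) = F a + F b`.
-/

namespace Vale.Agent.P287.R2.H847

open Module Submodule MvPolynomial
open Vale.Agent.P287.R2.H248

/-- Among ten planes two lie in disjoint orbits in general position, or all of them pass through
an Eckardt point. -/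
theorem cyclic_ten_or {F : MvPolynomial (Fin 6) ℂ} (hF : IsCubicFourfold F)
    {A B : Submodule ℂ A6} (hAB : IsCompl A B) (hA : finrank ℂ A = 1)
    (hsum : ∀ a ∈ A, ∀ b ∈ B, eval (a + b) F = eval a F + eval b F)
    (s : Finset (Submodule ℂ A6)) (h10 : 10 ≤ s.card) (hs : ∀ P ∈ s, IsPlaneIn F P) :
    (∃ P Q, IsPlaneIn F P ∧ IsPlaneIn F Q ∧ Disjoint P Q) ∨
      ∃ z, IsEckardt F z ∧ ∀ P ∈ s, z ∈ P := by
  rcases ten_or hF hAB hA hsum s h10 hs with ⟨P, hP, Q, hQ, h⟩ | h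
  · exact Or.inl (H389.cyclic_sum hF hAB hA hsum (hs P hP) (hs Q hQ) h)
  · exact Or.inr h

/-- **Ten planes, not all through one point.** -/
theorem cyclic_ten {F : MvPolynomial (Fin 6) ℂ} (hF : IsCubicFourfold F)
    {A B : Submodule ℂ A6} (hAB : IsCompl A B) (hA : finrank ℂ A = 1)
    (hsum : ∀ a ∈ A, ∀ b ∈ B, eval (a + b) F = eval a F + eval b F)
    (s : Finset (Submodule ℂ A6)) (h10 : 10 ≤ s.card) (hs : ∀ P ∈ s, IsPlaneIn F P)
    (hpt : ∀ x : A6, x ≠ 0 → ∃ P ∈ s, x ∉ P) :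
    ∃ P Q, IsPlaneIn F P ∧ IsPlaneIn F Q ∧ Disjoint P Q := by
  rcases cyclic_ten_or hF hAB hA hsum s h10 hs with h | ⟨z, hz, hall⟩
  · exact h
  · obtain ⟨P, hP, hzP⟩ := hpt z hz.1
    exact absurd (hall P hP) hzP

/-- **A cyclic cubic fourfold with at least 28 planes.** -/
theorem cyclic_28 {F : MvPolynomial (Fin 6) ℂ} (hF : IsCubicFourfold F)
    {A B : Submodule ℂ A6} (hAB : IsCompl A B) (hA : finrank ℂ A = 1)
    (hsum : ∀ a ∈ A, ∀ b ∈ B, eval (a + b) F = eval a F + eval b F)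
    (s : Finset (Submodule ℂ A6)) (h28 : 28 ≤ s.card) (hs : ∀ P ∈ s, IsPlaneIn F P) :
    ∃ P Q, IsPlaneIn F P ∧ IsPlaneIn F Q ∧ Disjoint P Q := by
  rcases cyclic_ten_or hF hAB hA hsum s (by omega) hs with h | ⟨z, hz, _⟩
  · exact h
  · exact H697.eckardt_many hF hz s h28 hs

end Vale.Agent.P287.R2.H847
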