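import Vale.Agent.P287.R2.H847.Many
import Vale.Agent.P287.R2.H248.Polar

/-!
P287: cyclic cubic fourfolds with at least ten planes (polynomial form).
-/

namespace Vale.Agent.P287.R2.H847

open Module Submodule MvPolynomial
open Vale.Agent.P287.R2.H248

/-- the trilinear form of a cyclic cubic -/
theorem exists_cyc {F : MvPolynomial (Fin 6) ℂ} (hF : IsCubicFourfold F) {A B : Submodule ℂ A6}
    (hAB : IsCompl A B) (hA : finrank ℂ A = 1)
    (hsum : ∀ a ∈ A, ∀ b ∈ B, eval (a + b) F = eval a F + eval b F) :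
    ∃ (v : A6) (l : A6 →ₗ[ℂ] ℂ), span ℂ {v} = A ∧ Cyc (pol F) v l := by
  obtain ⟨⟨v, hvA⟩, hv0, hvs⟩ := finrank_eq_one_iff'.mp hA
  have hv0' : v ≠ 0 := fun h => hv0 (Subtype.ext h)
  have hspan : span ℂ {v} = A := by
    apply le_antisymm (span_le.mpr (Set.singleton_subset_iff.mpr hvA))
    intro x hx
    obtain ⟨c, hc⟩ := hvs ⟨x, hx⟩
    rw [mem_span_singleton]
    exact ⟨c, congrArg Subtype.val hc⟩
  have hdec : ∀ x : A6, ∃ c : ℂ, ∃ b ∈ B, x = c • v + b := by
    intro x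
    have hx : x ∈ A ⊔ B := by rw [hAB.sup_eq_top]; trivial
    obtain ⟨a, ha, b, hb, rfl⟩ := mem_sup.mp hx
    rw [← hspan] at ha
    obtain ⟨c, rfl⟩ := mem_span_singleton.mp ha
    exact ⟨c, b, hb, rfl⟩
  have hBlt : B < ⊤ := by
    rw [lt_top_iff_ne_top]
    rintro rfl
    exact hv0' ((Submodule.disjoint_def.mp hAB.disjoint) v hvA trivial)
  obtain ⟨f, hf0, hf⟩ := Submodule.exists_le_ker_of_lt_top B hBlt
  have hfv : f v ≠ 0 := by
    intro h
    apply hf0
    refine LinearMap.ext fun x => ?_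
    obtain ⟨c, b, hb, rfl⟩ := hdec x
    have h1 : f b = 0 := hf hb
    rw [map_add, map_smul, h, h1, smul_zero, add_zero, LinearMap.zero_apply]
  have hl1 : ((f v)⁻¹ • f) v = 1 := by
    rw [LinearMap.smul_apply, smul_eq_mul, inv_mul_cancel₀ hfv]
  have hker : ∀ x, ((f v)⁻¹ • f) x = 0 → x ∈ B := by
    intro x hx
    obtain ⟨c, b, hb, rfl⟩ := hdec x
    have h1 : f b = 0 := hf hb
    rw [map_add, map_smul, hl1, LinearMap.smul_apply, h1, smul_zero, add_zero, smul_eq_mul,
      mul_one] at hx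
    rw [hx, zero_smul, zero_add]
    exact hb
  have hmix : ∀ b ∈ B, (pol F).T v v b = 0 ∧ (pol F).T v b b = 0 := by
    intro b hb
    have g : ∀ c : ℂ, 3 * c ^ 2 * (pol F).T v v b + 3 * c * (pol F).T v b b = 0 := by
      intro c
      have h1 := hsum (c • v) (A.smul_mem c hvA) b hb
      have h2 := (pol F).cube_add c 1 v b
      have h3 := (pol F).cube_add c 0 v b
      rw [one_smul, pol_three hF.1, h1] at h2
      rw [zero_smul, add_zero, pol_three hF.1] at h3
      rw [h3, ← pol_three hF.1 b] at h2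
      linear_combination -h2
    have h1 := g 1
    have h2 := g (-1)
    constructor
    · linear_combination (1 / 6 : ℂ) * h1 + (1 / 6 : ℂ) * h2
    · linear_combination (1 / 6 : ℂ) * h1 - (1 / 6 : ℂ) * h2
  refine ⟨v, (f v)⁻¹ • f, hspan, hl1, fun x hx => (hmix x (hker x hx)).1, ?_, ?_⟩
  · intro x y hx hy
    have hx' := hker x hx
    have hy' := hker y hy
    have h1 := (hmix _ (B.add_mem hx' hy')).2
    simp only [map_add, LinearMap.add_apply, (hmix x hx').2, (hmix y hy').2,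
      (pol F).s23 v y x] at h1
    linear_combination (1 / 2 : ℂ) * h1
  · intro h
    apply hv0'
    apply pol_smooth hF
    intro x
    obtain ⟨c, b, hb, rfl⟩ := hdec x
    rw [map_add, map_smul, h, (hmix b hb).1, smul_zero, add_zero]

/-- **Ten planes.** Two of the planes and the centre span everything, or all the planes pass
through an Eckardt point. -/
theorem ten_or {F : MvPolynomial (Fin 6) ℂ} (hF : IsCubicFourfold F) {A B : Submodule ℂ A6}
    (hAB : IsCompl A B) (hA : finrank ℂ A = 1)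
    (hsum : ∀ a ∈ A, ∀ b ∈ B, eval (a + b) F = eval a F + eval b F)
    (s : Finset (Submodule ℂ A6)) (h10 : 10 ≤ s.card) (hs : ∀ P ∈ s, IsPlaneIn F P) :
    (∃ P ∈ s, ∃ Q ∈ s, P ⊔ Q ⊔ A = ⊤) ∨ ∃ z, IsEckardt F z ∧ ∀ P ∈ s, z ∈ P := by
  obtain ⟨v, l, hvA, hC⟩ := exists_cyc hF hAB hA hsum
  by_cases hcom : ∃ z, z ≠ 0 ∧ l z = 0 ∧ (∀ P ∈ s, z ∈ P) ∧
      ∀ x y, (pol F).T z z x = 0 → (pol F).T z z y = 0 → (pol F).T z x y = 0
  · right
    obtain ⟨z, hz0, hzl, hz, hE⟩ := hcom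
    obtain ⟨P, hP⟩ : s.Nonempty := by
      rw [← Finset.card_pos]
      omega
    have hzz : (pol F).T z z z = 0 := by
      rw [pol_three hF.1]
      exact (hs P hP).2 z (hz P hP)
    refine ⟨z, ⟨hz0, (hs P hP).2 z (hz P hP), ?_⟩, hz⟩
    intro h hh c
    have h1 : (pol F).T z z h = 0 := by
      rw [pol_two hF.1]
      unfold InTangent at hh
      rw [hh, mul_zero]
    have h2 := (pol F).cube_add 1 c h z
    rw [one_smul, hzz, (pol F).cyc h z z, h1, ← (pol F).cyc z h h, hE h h h1 h1] at h2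
    rw [← pol_three hF.1, ← pol_three hF.1 h, h2]
    ring
  · left
    rw [← hvA]
    refine ten (pol_smooth hF) (by simp) hC
      (fun P hP => ⟨(hs P hP).1, (pol_iso hF.1).mpr (hs P hP).2⟩) h10 ?_
    intro z hz0 hzl hz hE
    exact hcom ⟨z, hz0, hzl, hz, hE⟩

end Vale.Agent.P287.R2.H847
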